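import Mathlib
import Vale.Agent.P038.VertexTransitive

/-- Seymour's second neighbourhood conjecture for vertex-transitive oriented graphs.
`r` is the arc relation of a finite oriented graph (`hasym` excludes loops and opposite arcs),
`hT` says that its automorphisms act transitively on the vertices.  Then every vertex `v` has
`|N⁺(v)| ≤ |N²(v)|` and in-degree equal to out-degree, and for every nonnegative weighting `μ`
of the vertices some vertex has `μ(N⁺(v)) ≤ μ(N²(v))`. -/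
theorem Vale.Agent.Results.P038.VertexTransitive.result {V : Type*} [Finite V] (r : V → V → Prop)
    (hasym : ∀ x y, r x y → ¬ r y x)
    (hT : ∀ a b, ∃ σ : V ≃ V, (∀ x y, r (σ x) (σ y) ↔ r x y) ∧ σ a = b) :
    (∀ v, Set.ncard {u | r v u} ≤ Set.ncard {w | w ≠ v ∧ ¬ r v w ∧ ∃ u, r v u ∧ r u w}) ∧
    (∀ v, Set.ncard {u | r u v} = Set.ncard {u | r v u}) ∧
    (∀ [Nonempty V] (μ : V → ℝ), (∀ x, 0 ≤ μ x) →
      ∃ v, ∑ᶠ u ∈ {u | r v u}, μ u ≤ ∑ᶠ u ∈ {w | w ≠ v ∧ ¬ r v w ∧ ∃ u, r v u ∧ r u w}, μ u) :=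
  Vale.Agent.P038.vertex_transitive_main r hasym hT
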